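import Mathlib

/-!
# P207, line N3: the linear algebra of the link between `E^s` as a tensor and the stable leaves

A symplectic map of `E × E` with blocks `a, b, c, d`; the Lagrangian plane `{(v, A v)}` is mapped
to `{(q, M q)}` and `{(v, (A - σ) v)}` to `{(M' p, p)}`. Then
`(1 - M' M) (b Dq† - Dq σ⁻¹ Dq†) = M'`, `Dq = a + b A`.
-/

open scoped RealInnerProductSpace

noncomputable section

namespace Vale.Agent.P207.N3.H473

variable {E : Type} [NormedAddCommGroup E] [InnerProductSpace ℝ E] [FiniteDimensional ℝ E]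

/-- in finite dimension a left inverse is a right inverse -/
theorem comp_eq_one_comm {f g : E →L[ℝ] E} (h : f ∘L g = 1) : g ∘L f = 1 := by
  have h1 : (f : E →ₗ[ℝ] E) * (g : E →ₗ[ℝ] E) = 1 := by
    ext v
    have := congrArg (fun k : E →L[ℝ] E => k v) h
    simpa using this
  have h2 := mul_eq_one_comm.1 h1
  ext v
  have := congrArg (fun k : E →ₗ[ℝ] E => k v) h2
  simpa using this

variable {a b c d A σ T M M' : E →L[ℝ] E}

/-- the blocks are those of a symplectic map -/
def Symp (a b c d : E →L[ℝ] E) : Prop :=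
  ∀ v w v' w' : E, ⟪c v + d w, a v' + b w'⟫ - ⟪a v + b w, c v' + d w'⟫ = ⟪w, v'⟫ - ⟪v, w'⟫

theorem dq_adj (hs : Symp a b c d) (hM : ∀ v w, ⟪M v, w⟫ = ⟪v, M w⟫)
    (hu : ∀ v, c v + d (A v) = M (a v + b (A v))) :
    (ContinuousLinearMap.adjoint (a + b ∘L A)) ∘L (d - M ∘L b) = 1 := by
  ext w
  refine ext_inner_right ℝ fun v => ?_
  have h1 := hs 0 w v (A v)
  simp only [map_zero, zero_add, inner_zero_left, sub_zero] at h1
  rw [hu v, ← hM] at h1
  simp only [ContinuousLinearMap.comp_apply, ContinuousLinearMap.adjoint_inner_left,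
    one_apply_eq_self, sub_apply, add_apply]
  rw [inner_sub_left]
  exact h1

theorem dq_inv (hs : Symp a b c d) (hM : ∀ v w, ⟪M v, w⟫ = ⟪v, M w⟫)
    (hu : ∀ v, c v + d (A v) = M (a v + b (A v))) :
    (d - M ∘L b) ∘L (ContinuousLinearMap.adjoint (a + b ∘L A)) = 1 :=
  comp_eq_one_comm (dq_adj hs hM hu)

theorem dq_isInv (hs : Symp a b c d) (hM : ∀ v w, ⟪M v, w⟫ = ⟪v, M w⟫)
    (hu : ∀ v, c v + d (A v) = M (a v + b (A v))) : (a + b ∘L A).IsInvertible := by
  have h1 := dq_adj hs hM hu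
  have h2 := dq_inv hs hM hu
  have h3 : (1 : E →L[ℝ] E) = ContinuousLinearMap.id ℝ E := rfl
  have h4 : ContinuousLinearMap.adjoint (1 : E →L[ℝ] E) = 1 := by
    rw [h3, ContinuousLinearMap.adjoint_id]
  have h5 := congrArg ContinuousLinearMap.adjoint h1
  have h6 := congrArg ContinuousLinearMap.adjoint h2
  rw [ContinuousLinearMap.adjoint_comp, ContinuousLinearMap.adjoint_adjoint, h4] at h5 h6
  exact ContinuousLinearMap.IsInvertible.of_inverse h6 h5

/-- **The link, linear algebra.** -/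
theorem link_la (hs : Symp a b c d) (hM : ∀ v w, ⟪M v, w⟫ = ⟪v, M w⟫)
    (hu : ∀ v, c v + d (A v) = M (a v + b (A v)))
    (hst : ∀ v, a v + b (A v - σ v) = M' (c v + d (A v - σ v))) (hT : σ ∘L T = 1) :
    (1 - M' ∘L M) ∘L (b ∘L ContinuousLinearMap.adjoint (a + b ∘L A)
      - (a + b ∘L A) ∘L T ∘L ContinuousLinearMap.adjoint (a + b ∘L A)) = M' := by
  have key := dq_inv hs hM hu
  have hD : ∀ v, (a + b ∘L A) v = a v + b (A v) := fun v => rfl
  generalize a + b ∘L A = Dq at key hD ⊢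
  ext r
  obtain ⟨w, hw⟩ : ∃ w, w = ContinuousLinearMap.adjoint Dq r := ⟨_, rfl⟩
  have h1 : d w - M (b w) = r := by
    have := congrArg (fun k : E →L[ℝ] E => k r) key
    simpa [hw] using this
  have h2 : σ (T w) = w := by
    have := congrArg (fun k : E →L[ℝ] E => k w) hT
    simpa using this
  have h3 := hst (T w)
  rw [h2] at h3
  have h4 : Dq (T w) - b w = M' (M (Dq (T w)) - d w) := by
    have h5 : Dq (T w) - b w = a (T w) + b (A (T w) - w) := by rw [hD, map_sub]; abel
    have h6 : M (Dq (T w)) - d w = c (T w) + d (A (T w) - w) := by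
      rw [hD, ← hu (T w), map_sub]; abel
    rw [h5, h6, h3]
  have h7 : b w - Dq (T w) = M' (d w - M (Dq (T w))) := by
    rw [← neg_sub, h4, ← map_neg, neg_sub]
  change (b (ContinuousLinearMap.adjoint Dq r) - Dq (T (ContinuousLinearMap.adjoint Dq r)))
    - M' (M (b (ContinuousLinearMap.adjoint Dq r)
      - Dq (T (ContinuousLinearMap.adjoint Dq r)))) = M' r
  rw [← hw, h7, ← map_sub, ← h1, ← h7, map_sub M]
  congr 1
  abel

end Vale.Agent.P207.N3.H473
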