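import Vale.Agent.P207.N3.H250.PF
import Vale.Agent.P207.N3.H473.LinkLA

/-!
# P207, line N3: the link at one point, in terms of the chart and of the leaves
-/

open Set Filter Topology Metric
open scoped ContDiff RealInnerProductSpace

noncomputable section

namespace Vale.Agent.P207.N3.H473

/-- the gradient as a linear function of the differential -/
def rz : (E2 →L[ℝ] ℝ) →L[ℝ] E2 :=
  LinearMap.mkContinuous
    { toFun := fun l => (InnerProductSpace.toDual ℝ E2).symm l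
      map_add' := fun a b => map_add _ a b
      map_smul' := fun c a => by simp } 1
    (fun l => by
      change ‖(InnerProductSpace.toDual ℝ E2).symm l‖ ≤ 1 * ‖l‖
      rw [LinearIsometryEquiv.norm_map, one_mul])

theorem inner_rz (l : E2 →L[ℝ] ℝ) (v : E2) : ⟪rz l, v⟫ = l v := by
  change ⟪(InnerProductSpace.toDual ℝ E2).symm l, v⟫ = l v
  rw [InnerProductSpace.toDual_symm_apply]

theorem gradient_eq_rz (f : E2 → ℝ) : gradient f = fun x => rz (fderiv ℝ f x) := rfl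

theorem contDiffAt_gradient {n m : WithTop ℕ∞} {f : E2 → ℝ} {q : E2} (hf : ContDiffAt ℝ n f q)
    (h : m + 1 ≤ n) : ContDiffAt ℝ m (gradient f) q := by
  rw [gradient_eq_rz]
  exact rz.contDiff.contDiffAt.comp q (hf.fderiv_right h)

/-- the Hessian is symmetric -/
theorem hess_symm {f : E2 → ℝ} {q : E2} (hf : ContDiffAt ℝ 2 f q) (v w : E2) :
    ⟪hess f q v, w⟫ = ⟪v, hess f q w⟫ := by
  have hd : DifferentiableAt ℝ (fderiv ℝ f) q :=
    (hf.fderiv_right (m := 1) (by norm_num)).differentiableAt (by norm_num)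
  have h2 : HasFDerivAt (gradient f) (rz ∘L fderiv ℝ (fderiv ℝ f) q) q := by
    rw [gradient_eq_rz]
    exact rz.hasFDerivAt.comp q hd.hasFDerivAt
  have h3 : ∀ v w, ⟪hess f q v, w⟫ = fderiv ℝ (fderiv ℝ f) q v w := by
    intro v w
    unfold hess
    rw [h2.fderiv]
    exact inner_rz _ _
  rw [h3, real_inner_comm, h3]
  exact (hf.isSymmSndFDerivAt (by simp)).eq v w

/-- `∂Φ₁/∂π` -/
def bl (Φ : E2 × E2 → E2 × E2) (z : E2 × E2) : E2 →L[ℝ] E2 :=
  ContinuousLinearMap.fst ℝ E2 E2 ∘L fderiv ℝ Φ z ∘L ContinuousLinearMap.inr ℝ E2 E2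

/-- **The link at one point.** -/
theorem link_pt {Φ : E2 × E2 → E2 × E2} {u s S S' : E2 → ℝ} {t₀ : E2} {T : E2 →L[ℝ] E2}
    (hΦ : DifferentiableAt ℝ Φ (t₀, gradient u t₀))
    (hsymp : ∀ x y, sympl (fderiv ℝ Φ (t₀, gradient u t₀) x)
      (fderiv ℝ Φ (t₀, gradient u t₀) y) = sympl x y)
    (hu : DifferentiableAt ℝ (gradient u) t₀) (hs : DifferentiableAt ℝ (gradient s) t₀)
    (h0 : gradient u t₀ + gradient s t₀ = 0)
    (hS : ContDiffAt ℝ 2 S (Φ (t₀, gradient u t₀)).1)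
    (hS' : DifferentiableAt ℝ (gradient S') (Φ (t₀, gradient u t₀)).2)
    (lu : ∀ᶠ t in 𝓝 t₀, gradient S (Φ (t, gradient u t)).1 = (Φ (t, gradient u t)).2)
    (ls : ∀ᶠ t in 𝓝 t₀, gradient S' (Φ (t, -gradient s t)).2 = (Φ (t, -gradient s t)).1)
    (hT : (hess u t₀ + hess s t₀) ∘L T = 1) :
    (fderiv ℝ (fun t => (Φ (t, gradient u t)).1) t₀).IsInvertible ∧
    (1 - hess S' (Φ (t₀, gradient u t₀)).2 ∘L hess S (Φ (t₀, gradient u t₀)).1) ∘L
      (bl Φ (t₀, gradient u t₀) ∘L ContinuousLinearMap.adjoint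
          (fderiv ℝ (fun t => (Φ (t, gradient u t)).1) t₀)
        - fderiv ℝ (fun t => (Φ (t, gradient u t)).1) t₀ ∘L T ∘L ContinuousLinearMap.adjoint
          (fderiv ℝ (fun t => (Φ (t, gradient u t)).1) t₀))
      = hess S' (Φ (t₀, gradient u t₀)).2 := by
  have hs0 : -gradient s t₀ = gradient u t₀ := neg_eq_of_add_eq_zero_left h0
  obtain ⟨D, hD⟩ : ∃ D, D = fderiv ℝ Φ (t₀, gradient u t₀) := ⟨_, rfl⟩
  have hDf : HasFDerivAt Φ D (t₀, gradient u t₀) := by rw [hD]; exact hΦ.hasFDerivAt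
  rw [← hD] at hsymp
  have hA : HasFDerivAt (gradient u) (hess u t₀) t₀ := hu.hasFDerivAt
  have hB : HasFDerivAt (fun t => -gradient s t) (-hess s t₀) t₀ := hs.hasFDerivAt.neg
  -- the two curves of points
  have h1 : HasFDerivAt (fun t => Φ (t, gradient u t))
      (D ∘L (ContinuousLinearMap.id ℝ E2).prod (hess u t₀)) t₀ :=
    hDf.comp t₀ ((hasFDerivAt_id t₀).prodMk hA)
  have h2 : HasFDerivAt (fun t => Φ (t, -gradient s t))
      (D ∘L (ContinuousLinearMap.id ℝ E2).prod (-hess s t₀)) t₀ := by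
    have h3 : HasFDerivAt Φ D ((fun t : E2 => (t, -gradient s t)) t₀) := by
      change HasFDerivAt Φ D (t₀, -gradient s t₀)
      rw [hs0]
      exact hDf
    exact h3.comp t₀ ((hasFDerivAt_id t₀).prodMk hB)
  have hq : HasFDerivAt (fun t => (Φ (t, gradient u t)).1)
      (ContinuousLinearMap.fst ℝ E2 E2 ∘L (D ∘L (ContinuousLinearMap.id ℝ E2).prod (hess u t₀)))
      t₀ := (ContinuousLinearMap.fst ℝ E2 E2).hasFDerivAt.comp t₀ h1
  have hp : HasFDerivAt (fun t => (Φ (t, gradient u t)).2)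
      (ContinuousLinearMap.snd ℝ E2 E2 ∘L (D ∘L (ContinuousLinearMap.id ℝ E2).prod (hess u t₀)))
      t₀ := (ContinuousLinearMap.snd ℝ E2 E2).hasFDerivAt.comp t₀ h1
  have hq' : HasFDerivAt (fun t => (Φ (t, -gradient s t)).1)
      (ContinuousLinearMap.fst ℝ E2 E2 ∘L (D ∘L (ContinuousLinearMap.id ℝ E2).prod (-hess s t₀)))
      t₀ := (ContinuousLinearMap.fst ℝ E2 E2).hasFDerivAt.comp t₀ h2
  have hp' : HasFDerivAt (fun t => (Φ (t, -gradient s t)).2)
      (ContinuousLinearMap.snd ℝ E2 E2 ∘L (D ∘L (ContinuousLinearMap.id ℝ E2).prod (-hess s t₀)))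
      t₀ := (ContinuousLinearMap.snd ℝ E2 E2).hasFDerivAt.comp t₀ h2
  have hSd : HasFDerivAt (gradient S) (hess S (Φ (t₀, gradient u t₀)).1)
      (Φ (t₀, gradient u t₀)).1 := by
    have hd : ContDiffAt ℝ 1 (gradient S) (Φ (t₀, gradient u t₀)).1 :=
      contDiffAt_gradient hS (by norm_num)
    exact (hd.differentiableAt (by norm_num)).hasFDerivAt
  have hSd' : HasFDerivAt (gradient S') (hess S' (Φ (t₀, gradient u t₀)).2)
      (Φ (t₀, gradient u t₀)).2 := hS'.hasFDerivAt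
  -- the tangent planes
  have e1 : hess S (Φ (t₀, gradient u t₀)).1 ∘L (ContinuousLinearMap.fst ℝ E2 E2 ∘L
      (D ∘L (ContinuousLinearMap.id ℝ E2).prod (hess u t₀)))
      = ContinuousLinearMap.snd ℝ E2 E2 ∘L
        (D ∘L (ContinuousLinearMap.id ℝ E2).prod (hess u t₀)) := by
    have h5 := hSd.comp t₀ hq
    have h6 : (fun t => gradient S (Φ (t, gradient u t)).1)
        =ᶠ[𝓝 t₀] fun t => (Φ (t, gradient u t)).2 := lu
    exact (h5.congr_of_eventuallyEq h6.symm).unique hp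
  have e2 : hess S' (Φ (t₀, gradient u t₀)).2 ∘L (ContinuousLinearMap.snd ℝ E2 E2 ∘L
      (D ∘L (ContinuousLinearMap.id ℝ E2).prod (-hess s t₀)))
      = ContinuousLinearMap.fst ℝ E2 E2 ∘L
        (D ∘L (ContinuousLinearMap.id ℝ E2).prod (-hess s t₀)) := by
    have h4 : HasFDerivAt (gradient S') (hess S' (Φ (t₀, gradient u t₀)).2)
        ((fun t => (Φ (t, -gradient s t)).2) t₀) := by
      change HasFDerivAt (gradient S') _ (Φ (t₀, -gradient s t₀)).2
      rw [hs0]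
      exact hSd'
    have h5 := h4.comp t₀ hp'
    have h6 : (fun t => gradient S' (Φ (t, -gradient s t)).2)
        =ᶠ[𝓝 t₀] fun t => (Φ (t, -gradient s t)).1 := ls
    exact (h5.congr_of_eventuallyEq h6.symm).unique hq'
  obtain ⟨a, ha⟩ : ∃ a : E2 →L[ℝ] E2, a = ContinuousLinearMap.fst ℝ E2 E2 ∘L D ∘L
    ContinuousLinearMap.inl ℝ E2 E2 := ⟨_, rfl⟩
  obtain ⟨b, hb⟩ : ∃ b : E2 →L[ℝ] E2, b = ContinuousLinearMap.fst ℝ E2 E2 ∘L D ∘L
    ContinuousLinearMap.inr ℝ E2 E2 := ⟨_, rfl⟩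
  obtain ⟨c, hc⟩ : ∃ c : E2 →L[ℝ] E2, c = ContinuousLinearMap.snd ℝ E2 E2 ∘L D ∘L
    ContinuousLinearMap.inl ℝ E2 E2 := ⟨_, rfl⟩
  obtain ⟨d, hd⟩ : ∃ d : E2 →L[ℝ] E2, d = ContinuousLinearMap.snd ℝ E2 E2 ∘L D ∘L
    ContinuousLinearMap.inr ℝ E2 E2 := ⟨_, rfl⟩
  have hD1 : ∀ v w : E2, (D (v, w)).1 = a v + b w := fun v w => by
    have : ((v, w) : E2 × E2) = (v, 0) + (0, w) := by simp
    rw [this, map_add]
    simp [ha, hb]
  have hD2 : ∀ v w : E2, (D (v, w)).2 = c v + d w := fun v w => by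
    have : ((v, w) : E2 × E2) = (v, 0) + (0, w) := by simp
    rw [this, map_add]
    simp [hc, hd]
  have hDq : fderiv ℝ (fun t => (Φ (t, gradient u t)).1) t₀ = a + b ∘L hess u t₀ := by
    rw [hq.fderiv]
    ext1 v
    exact hD1 v (hess u t₀ v)
  have hbl : bl Φ (t₀, gradient u t₀) = b := by rw [bl, ← hD, hb]
  rw [hDq, hbl]
  have hsy : Symp a b c d := by
    intro v w v' w'
    have := hsymp (v, w) (v', w')
    simp only [sympl] at this
    rw [hD1, hD2, hD1, hD2] at this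
    exact this
  have hgr : ∀ v, c v + d (hess u t₀ v)
      = hess S (Φ (t₀, gradient u t₀)).1 (a v + b (hess u t₀ v)) := by
    intro v
    have := congrArg (fun k : E2 →L[ℝ] E2 => k v) e1
    change hess S _ (D (v, hess u t₀ v)).1 = (D (v, hess u t₀ v)).2 at this
    rw [hD1, hD2] at this
    exact this.symm
  refine ⟨dq_isInv hsy (hess_symm hS) hgr, link_la hsy (hess_symm hS) hgr ?_ hT⟩
  · intro v
    have := congrArg (fun k : E2 →L[ℝ] E2 => k v) e2
    change hess S' _ (D (v, -hess s t₀ v)).2 = (D (v, -hess s t₀ v)).1 at this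
    rw [hD1, hD2] at this
    have h7 : hess u t₀ v - (hess u t₀ + hess s t₀) v = -hess s t₀ v := by
      simp
    rw [h7]
    exact this.symm

end Vale.Agent.P207.N3.H473
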