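import Vale.Agent.P207.N3.H266.TensG
import Vale.Agent.P207.N3.H250.Germ
import Vale.Agent.P207.N3.H473.LinkPt

/-!
# P207, line N3: the tensor of the stable subspaces seen from any level of the leaf
-/

open Set Filter Topology Metric MeasureTheory
open scoped ContDiff RealInnerProductSpace

noncomputable section

namespace Vale.Agent.P207.N3.H473

open Ten

variable {Γ X B : Type} [Group Γ] [MetricSpace X] [ProperSpace X] [MulAction Γ X]
  [IsIsometricSMul Γ X] [TopologicalSpace B] [CompactSpace B] [T2Space B] [MulAction Γ B]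
  [ContinuousConstSMul Γ B] {L : Leaf Γ X B} (M : Metr L) {x z : X} {u : E2}

/-- The tensor at `e x u` from a frame `z` at any level over the point. -/
theorem NN_level (hz : L.em z = L.em x) (he : L.ep z = L.e x u) (hu : u ∈ ball (0 : E2) 3) :
    cj (fderiv ℝ (L.τ z x) 0) (Si M z) = NN M x u
      - ∫ s in (0 : ℝ)..(L.lv z - L.lv x), hor L (x, s) u := by
  obtain ⟨T, hT⟩ : ∃ T, T = L.lv z - L.lv x := ⟨_, rfl⟩
  obtain ⟨z₀, hz₀⟩ : ∃ z₀, z₀ = L.φ (-T) z := ⟨_, rfl⟩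
  have hzz : L.φ T z₀ = z := by rw [hz₀, ← L.φ_add, add_neg_cancel, L.φ_zero]
  have h : IsPt L x u z₀ := by
    refine ⟨?_, ?_, ?_⟩
    · rw [hz₀, L.em_φ, hz]
    · rw [hz₀, ep_φ, he]
    · rw [hz₀, L.lv_φ, hT]; ring
  have hchain : ∀ s, fderiv ℝ (L.τ (L.φ s z₀) x) 0 = fderiv ℝ (L.τ z₀ x) 0 ∘L Mf L z₀ s := by
    intro s
    have h0 : L.ep (L.φ s z₀) = L.ep z₀ := ep_φ L s z₀
    have h1 : L.τ (L.φ s z₀) z₀ 0 = 0 := tau_zero_of_ep h0
    rw [fderiv_tau_trans (x := L.φ s z₀) (y := z₀) (z := x) (L.em_φ s z₀) h.em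
      (dm_zero_of_ep h0) (by rw [h1]; exact h.dm hu), h1]
    rfl
  have hcont : Continuous fun s => cj (Mf L z₀ s) (ContinuousLinearMap.id ℝ E2) := by
    have h1 := Mf_cont M z₀
    have h2 : Continuous fun s => ContinuousLinearMap.adjoint (Mf L z₀ s) :=
      adjL.continuous.comp h1
    exact h1.clm_comp (continuous_const.clm_comp h2)
  have h5 : ∀ s : ℝ, cj (fderiv ℝ (L.τ z₀ x) 0)
      (cj (Mf L z₀ s) (ContinuousLinearMap.id ℝ E2)) = hor L (x, s) u := by
    intro s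
    rw [← cj_comp, ← hchain s, hor_eq h hu s]
  rw [← hT, ← hzz, hchain T, cj_comp, cj_int M z₀ T, cj_sub,
    cj_integral _ (hcont.intervalIntegrable 0 T), ← NN_eq M h hu]
  simp only [h5]

/-- The integral of the metrics up to a smooth level is smooth. -/
theorem smooth_int {H : ℝ × E2 → E2 →L[ℝ] E2} (hH : ContDiffOn ℝ ∞ H (univ ×ˢ ball 0 3))
    {l : E2 → ℝ} {u₀ : E2} (hu₀ : u₀ ∈ ball (0 : E2) 3) (hl : SG l u₀) :
    SG (fun v => ∫ s in (0 : ℝ)..(l v), H (s, v)) u₀ := by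
  obtain ⟨V, hVo, hu, hlV, hV3⟩ : ∃ V : Set E2, IsOpen V ∧ u₀ ∈ V ∧ ContDiffOn ℝ ∞ l V ∧
      V ⊆ ball 0 3 := by
    obtain ⟨U, hUo, hU, hlU⟩ := hl.open
    exact ⟨U ∩ ball 0 3, hUo.inter isOpen_ball, ⟨hU, hu₀⟩, hlU.mono inter_subset_left,
      inter_subset_right⟩
  have h1 : ContDiffOn ℝ ∞ (fun p : ℝ × E2 => H (l p.2 * p.1, p.2)) (univ ×ˢ V) := by
    refine hH.comp (f := fun p : ℝ × E2 => ((l p.2 * p.1, p.2) : ℝ × E2)) ?_
      fun p hp => ⟨mem_univ _, hV3 hp.2⟩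
    refine ContDiffOn.prodMk (ContDiffOn.mul ?_ contDiffOn_fst) contDiffOn_snd
    exact hlV.comp contDiffOn_snd fun p hp => hp.2
  have h2 : JC (fun (σ : ℝ) v => H (l v * σ, v)) (univ ×ˢ V) :=
    JC.of_uncurry (isOpen_univ.prod hVo) h1
  have h3 : JC (fun (q : Unit × ℝ) v => H (l v * q.2, v))
      {p : (Unit × ℝ) × E2 | (p.1.2, p.2) ∈ (univ : Set ℝ) ×ˢ V} :=
    h2.pullback continuous_snd
  have h4 := (JC.integral (a := 0) (b := 1) h3).smooth ()
  have h5 : ContDiffOn ℝ ∞ (fun v => ∫ t in (0 : ℝ)..1, H (l v * t, v)) V :=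
    h4.mono fun v hv t _ => ⟨mem_univ _, hv⟩
  have h6 : (fun v => ∫ s in (0 : ℝ)..(l v), H (s, v))
      = fun v => l v • ∫ t in (0 : ℝ)..1, H (l v * t, v) := by
    funext v
    have := intervalIntegral.smul_integral_comp_mul_left (a := 0) (b := 1)
      (fun s => H (s, v)) (l v)
    rw [this]
    simp
  rw [h6]
  filter_upwards [hVo.mem_nhds hu] with v hv
  exact (hlV.smul h5).contDiffAt (hVo.mem_nhds hv)

/-- the inverse function theorem for maps which are smooth near a point -/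
theorem SG_inverse {g : E2 → E2} {a : E2} (hg : SG g a) (hi : (fderiv ℝ g a).IsInvertible) :
    ∃ θ : E2 → E2, SG θ (g a) ∧ θ (g a) = a ∧ (∀ᶠ v in 𝓝 (g a), g (θ v) = v) ∧
      (∀ᶠ t in 𝓝 a, θ (g t) = t) := by
  obtain ⟨f', hf'⟩ := hi
  have h1 : HasFDerivAt g (f' : E2 →L[ℝ] E2) a := by
    rw [hf']
    exact (hg.at.differentiableAt (by simp)).hasFDerivAt
  have hg1 : ContDiffAt ℝ ∞ g a := hg.at
  set e := hg1.toOpenPartialHomeomorph g h1 (by simp) with he
  have hea : a ∈ e.source := hg1.mem_toOpenPartialHomeomorph_source h1 (by simp)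
  have heg : (e : E2 → E2) = g := rfl
  have hga : g a ∈ e.target := by
    rw [← heg]
    exact e.map_source hea
  refine ⟨e.symm, ?_, ?_, ?_, ?_⟩
  · have hc : Tendsto e.symm (𝓝 (g a)) (𝓝 a) := by
      have := (e.symm.continuousAt (x := g a) hga).tendsto
      rwa [show e.symm (g a) = a from e.left_inv hea] at this
    have hd : ∀ᶠ t in 𝓝 a, ContDiffAt ℝ ∞ g t ∧ (fderiv ℝ g t).IsInvertible := by
      have h2 : ContinuousAt (fderiv ℝ g) a := (hg.fderiv).contAt
      have h3 : ∀ᶠ A in 𝓝 (fderiv ℝ g a), ContinuousLinearMap.IsInvertible A := by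
        rw [← hf']
        exact ContinuousLinearEquiv.nhds f'
      exact hg.and (h2.eventually h3)
    filter_upwards [hc.eventually hd, e.open_target.mem_nhds hga] with v hv hvt
    obtain ⟨A, hA⟩ := hv.2
    refine e.contDiffAt_symm (f₀' := A) hvt ?_ ?_
    · rw [heg, hA]
      exact (hv.1.differentiableAt (by simp)).hasFDerivAt
    · exact hv.1
  · exact e.left_inv hea
  · filter_upwards [e.open_target.mem_nhds hga] with v hv
    exact e.right_inv hv
  · filter_upwards [e.open_source.mem_nhds hea] with t ht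
    exact e.left_inv ht

end Vale.Agent.P207.N3.H473
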