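import Vale.Agent.P207.N3.H250.Dyn0
import Vale.Agent.P207.N3.H473.LinkNN

/-!
# P207, line N3: the link between the tensor `E^s` of the leaves and the chart of a closed orbit

`LinkPF` is the output of the package P3 (chart `Φ`, leaves `p = ∇S_y(q)`, `q = ∇S'_x(p)`),
`LinkIn` the relation of the disc with the frames (`u`, `s` are the Busemann functions; the chart is
applied to `ng u`, `ng s`). `link`: along the leaf `y`, in the chart `e x`,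
`(1 - M'M) (N' + r₀⁻² DQ N DQᵀ) = M'` with a smooth `N'`. `link0`: the leaf `y = 0`, `M = 0`, `Q` is
the label of the stable leaf.
-/

open Set Filter Topology Metric MeasureTheory
open scoped ContDiff RealInnerProductSpace

noncomputable section

namespace Vale.Agent.P207.N3.H473

open Ten

variable {Γ X B : Type} [Group Γ] [MetricSpace X] [ProperSpace X] [MulAction Γ X]
  [IsIsometricSMul Γ X] [TopologicalSpace B] [CompactSpace B] [T2Space B] [MulAction Γ B]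
  [ContinuousConstSMul Γ B]

/-- The chart and the two families of leaves. -/
structure LinkPF (u s : E2 → E2 → ℝ) (xh : E2 × E2 → E2) (Φ : E2 × E2 → E2 × E2)
    (S S' : E2 → E2 → ℝ) : Prop where
  Φ_zero : Φ 0 = 0
  Φ_smooth : SG Φ 0
  Φ_sympl : ∀ᶠ z in 𝓝 (0 : E2 × E2), ∀ a b,
    sympl (fderiv ℝ Φ z a) (fderiv ℝ Φ z b) = sympl a b
  u_jg : JG u
  s_jg : JG s
  crit : gradient (u 0) 0 = 0
  inv0 : (hess (u 0) 0 + hess (s 0) 0).IsInvertible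
  xh_cont : ContinuousAt xh 0
  xh_zero : xh 0 = 0
  leaf_xh : ∀ᶠ z in 𝓝 (0 : E2 × E2), gradient (s (xh z)) z.1 = - z.2
  S_smooth : ∀ᶠ w in 𝓝 (0 : E2 × E2), ContDiffAt ℝ ∞ (S w.1) w.2
  S'_smooth : ∀ᶠ w in 𝓝 (0 : E2 × E2), ContDiffAt ℝ ∞ (S' w.1) w.2
  leaf_S : ∀ᶠ w in 𝓝 (0 : E2 × E2), gradient (S w.1) (Φ (lf u w)).1 = (Φ (lf u w)).2
  leaf_S' : ∀ᶠ w in 𝓝 (0 : E2 × E2), gradient (S' w.1) (Φ (lf' s w)).2 = (Φ (lf' s w)).1
  base : ∀ᶠ q in 𝓝 (0 : E2), gradient (S 0) q = 0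
  label' : ∀ᶠ x in 𝓝 (0 : E2), gradient (S' x) 0 = x

/-- the frames over the points of the disc, and the horospheres in the charts -/
structure LinkIn (L : Leaf Γ X B) (M : Metr L) (u s : E2 → E2 → ℝ) (xh : E2 × E2 → E2) where
  ξ : E2 → B
  η : E2 → B
  z : E2 × E2 → X
  c : E2 → ℝ
  r0 : ℝ
  r0_pos : 0 < r0
  em_z : ∀ᶠ w in 𝓝 (0 : E2 × E2), L.em (z w) = ξ w.1
  ep_z : ∀ᶠ w in 𝓝 (0 : E2 × E2), L.ep (z w) = η (xh (lf u w))
  lv_z : ∀ᶠ w in 𝓝 (0 : E2 × E2), L.lv (z w) = u w.1 w.2 + c w.1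
  ep_cont : ∀ᶠ w in 𝓝 (0 : E2 × E2), ContinuousAt (fun t => L.ep (z (w.1, t))) w.2
  psi : ∀ᶠ w in 𝓝 (0 : E2 × E2), SG (fun t => L.τ (z (w.1, t)) (z w) 0) w.2
  hess_z : ∀ᶠ w in 𝓝 (0 : E2 × E2), ∀ v v' : E2,
    ⟪(hess (u w.1) w.2 + hess (s (xh (lf u w))) w.2) v, v'⟫ = r0 ^ 2 *
      ⟪Sf M (z w) (fderiv ℝ (fun t => L.τ (z (w.1, t)) (z w) 0) w.2 v),
        fderiv ℝ (fun t => L.τ (z (w.1, t)) (z w) 0) w.2 v'⟫
  hor_smooth : ∀ x, ContDiffOn ℝ ∞ (fun p : ℝ × E2 => hor L (x, p.1) p.2) (univ ×ˢ ball 0 3)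

theorem isInv_ev {A : E2 →L[ℝ] E2} (h : A.IsInvertible) :
    ∀ᶠ C in 𝓝 A, ContinuousLinearMap.IsInvertible C := by
  obtain ⟨f, rfl⟩ := h
  exact ContinuousLinearEquiv.nhds f

/-- nearby points on the same leaf -/
theorem slice {P : E2 × E2 → Prop} {w : E2 × E2} (h : ∀ᶠ w' in 𝓝 w, P w') :
    ∀ᶠ t in 𝓝 w.2, P (w.1, t) := by
  have h1 : Tendsto (fun t : E2 => (w.1, t)) (𝓝 w.2) (𝓝 w) :=
    (Continuous.prodMk_right w.1).tendsto _
  exact h1.eventually h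

namespace LinkPF

variable {u s S S' : E2 → E2 → ℝ} {xh : E2 × E2 → E2} {Φ : E2 × E2 → E2 × E2}

theorem lf_tend (D : LinkPF u s xh Φ S S') : Tendsto (lf u) (𝓝 0) (𝓝 0) := by
  have h1 : ContinuousAt (fun p : E2 × E2 => gradient (u p.1) p.2) (0, 0) :=
    D.u_jg.gradient.contAt
  have h2 : ContinuousAt (lf u) (0, 0) := continuousAt_snd.prodMk h1
  have h3 : lf u (0, 0) = 0 := by
    show ((0 : E2), gradient (u 0) 0) = 0
    rw [D.crit]; rfl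
  have h4 := h2.tendsto
  rwa [h3] at h4

theorem x_tend (D : LinkPF u s xh Φ S S') : Tendsto (fun w => xh (lf u w)) (𝓝 0) (𝓝 0) := by
  have h1 := D.xh_cont.tendsto
  rw [D.xh_zero] at h1
  exact h1.comp D.lf_tend

theorem xt_tend (D : LinkPF u s xh Φ S S') :
    Tendsto (fun w : E2 × E2 => (xh (lf u w), w.2)) (𝓝 0) (𝓝 0) :=
  D.x_tend.prodMk_nhds (continuous_snd.tendsto (0 : E2 × E2))

theorem Φ_tend (D : LinkPF u s xh Φ S S') : Tendsto (fun w => Φ (lf u w)) (𝓝 0) (𝓝 0) := by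
  have h1 := D.Φ_smooth.contAt.tendsto
  rw [D.Φ_zero] at h1
  exact h1.comp D.lf_tend

/-- the pointwise form of the link, near the origin -/
theorem pt (D : LinkPF u s xh Φ S S') : ∀ᶠ w in 𝓝 (0 : E2 × E2),
    SG (fun t => Φ (lf u (w.1, t))) w.2 ∧ SG (fun t => bl Φ (lf u (w.1, t))) w.2 ∧
    (hess (u w.1) w.2 + hess (s (xh (lf u w))) w.2).IsInvertible ∧
    (fderiv ℝ (fun t => (Φ (lf u (w.1, t))).1) w.2).IsInvertible ∧
    ∀ T : E2 →L[ℝ] E2, (hess (u w.1) w.2 + hess (s (xh (lf u w))) w.2) ∘L T = 1 →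
      (1 - hess (S' (xh (lf u w))) (Φ (lf u w)).2 ∘L hess (S w.1) (Φ (lf u w)).1) ∘L
        (bl Φ (lf u w) ∘L ContinuousLinearMap.adjoint
            (fderiv ℝ (fun t => (Φ (lf u (w.1, t))).1) w.2)
          - fderiv ℝ (fun t => (Φ (lf u (w.1, t))).1) w.2 ∘L T ∘L
            ContinuousLinearMap.adjoint (fderiv ℝ (fun t => (Φ (lf u (w.1, t))).1) w.2))
        = hess (S' (xh (lf u w))) (Φ (lf u w)).2 := by
  have e0 : ((0 : E2), (0 : E2)) = (0 : E2 × E2) := rfl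
  have hlf := D.lf_tend
  have hxt := D.xt_tend
  have hΦt := D.Φ_tend
  -- smoothness
  have a1 : ∀ᶠ w in 𝓝 (0 : E2 × E2), SG Φ (lf u w) := hlf.eventually D.Φ_smooth.eventually_nhds
  have a2 : ∀ᶠ w in 𝓝 (0 : E2 × E2), ∀ᶠ w' in 𝓝 w, ContDiffAt ℝ ∞ (gradient (u w'.1)) w'.2 :=
    (D.u_jg.gradient.smooth).eventually_nhds
  have a3 : ∀ᶠ w in 𝓝 (0 : E2 × E2), ContDiffAt ℝ ∞ (gradient (s (xh (lf u w)))) w.2 :=
    hxt.eventually D.s_jg.gradient.smooth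
  have a4 := hlf.eventually D.Φ_sympl
  have a5 := hlf.eventually D.leaf_xh
  have a6 : ∀ᶠ w in 𝓝 (0 : E2 × E2), ContDiffAt ℝ ∞ (S w.1) (Φ (lf u w)).1 := by
    have h1 : Tendsto (fun w : E2 × E2 => (w.1, (Φ (lf u w)).1)) (𝓝 0) (𝓝 0) :=
      (continuous_fst.tendsto (0 : E2 × E2)).prodMk_nhds
        ((continuous_fst.tendsto (0 : E2 × E2)).comp hΦt)
    exact h1.eventually D.S_smooth
  have a7 : ∀ᶠ w in 𝓝 (0 : E2 × E2), ContDiffAt ℝ ∞ (S' (xh (lf u w))) (Φ (lf u w)).2 := by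
    have h1 : Tendsto (fun w : E2 × E2 => (xh (lf u w), (Φ (lf u w)).2)) (𝓝 0) (𝓝 0) :=
      D.x_tend.prodMk_nhds ((continuous_snd.tendsto (0 : E2 × E2)).comp hΦt)
    exact h1.eventually D.S'_smooth
  have a8 := D.leaf_S.eventually_nhds
  have a9 : ∀ᶠ w in 𝓝 (0 : E2 × E2), ∀ᶠ w' in 𝓝 ((xh (lf u w), w.2) : E2 × E2),
      gradient (S' w'.1) (Φ (lf' s w')).2 = (Φ (lf' s w')).1 :=
    hxt.eventually D.leaf_S'.eventually_nhds
  -- the Hessian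
  have a10 : ∀ᶠ w in 𝓝 (0 : E2 × E2),
      (hess (u w.1) w.2 + hess (s (xh (lf u w))) w.2).IsInvertible := by
    have h1 : ContinuousAt (fun p : E2 × E2 => hess (u p.1) p.2) 0 :=
      D.u_jg.gradient.fderiv.contAt
    have h2 : ContinuousAt (fun p : E2 × E2 => hess (s p.1) p.2) 0 :=
      D.s_jg.gradient.fderiv.contAt
    have h3 : Tendsto (fun w : E2 × E2 => hess (s (xh (lf u w))) w.2) (𝓝 0)
        (𝓝 (hess (s 0) 0)) := h2.tendsto.comp hxt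
    have h4 : Tendsto (fun w : E2 × E2 => hess (u w.1) w.2 + hess (s (xh (lf u w))) w.2) (𝓝 0)
        (𝓝 (hess (u 0) 0 + hess (s 0) 0)) := h1.tendsto.add h3
    exact h4.eventually (isInv_ev D.inv0)
  filter_upwards [a1, a2, a3, a4, a5, a6, a7, a8, a9, a10]
    with w b1 b2 b3 b4 b5 b6 b7 b8 b9 b10
  have c1 : SG (fun t => gradient (u w.1) t) w.2 := slice b2
  have c2 : SG (fun t => lf u (w.1, t)) w.2 :=
    SG.prodMk (Eventually.of_forall fun t => contDiffAt_id) c1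
  have c3 : SG (fun t => Φ (lf u (w.1, t))) w.2 := SG.comp (g := Φ) b1 c2
  have c4 : SG (fun t => bl Φ (lf u (w.1, t))) w.2 := by
    refine SG.comp (g := bl Φ) (f := fun t => lf u (w.1, t)) ?_ c2
    have h1 : SG (fderiv ℝ Φ) (lf u w) := b1.fderiv
    filter_upwards [h1] with z hz
    exact contDiffAt_const.clm_comp (hz.clm_comp contDiffAt_const)
  have key := fun (T : E2 →L[ℝ] E2) (hT : (hess (u w.1) w.2 + hess (s (xh (lf u w))) w.2) ∘L T = 1)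
      => link_pt (Φ := Φ) (u := u w.1) (s := s (xh (lf u w))) (S := S w.1)
    (S' := S' (xh (lf u w))) (t₀ := w.2) (T := T) (b1.at.differentiableAt (by simp)) b4
    (c1.at.differentiableAt (by simp)) (b3.differentiableAt (by simp))
    (by rw [show gradient (s (xh (lf u w))) w.2 = - gradient (u w.1) w.2 from b5,
      add_neg_cancel])
    (b6.of_le (WithTop.coe_le_coe.2 le_top : ((2 : ℕ∞) : WithTop ℕ∞) ≤ ((⊤ : ℕ∞) : WithTop ℕ∞)))
    ((contDiffAt_gradient b7 (m := 1)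
      (WithTop.coe_le_coe.2 le_top : ((1 + 1 : ℕ∞) : WithTop ℕ∞) ≤ ((⊤ : ℕ∞) : WithTop ℕ∞))).differentiableAt (by norm_num))
    (slice b8) (slice (w := (xh (lf u w), w.2)) b9) hT
  obtain ⟨T, hT⟩ : ∃ T : E2 →L[ℝ] E2,
      (hess (u w.1) w.2 + hess (s (xh (lf u w))) w.2) ∘L T = 1 := by
    obtain ⟨e, he⟩ := b10
    refine ⟨e.symm, ?_⟩
    rw [← he]
    ext1 v
    simp
  exact ⟨c3, c4, b10, (key T hT).1, fun T hT => (key T hT).2⟩

end LinkPF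

/-! ### the chart of a leaf, from the disc -/

theorem isInv_of_left {A C : E2 →L[ℝ] E2} (h : C ∘L A = 1) : A.IsInvertible :=
  ContinuousLinearMap.IsInvertible.of_inverse (comp_eq_one_comm h) h

theorem geo {L : Leaf Γ X B} {z : E2 → X} {t₀ : E2} {x : X} {u₀ : E2}
    (hu₀ : u₀ ∈ ball (0 : E2) 3) (hx : L.e x u₀ = L.ep (z t₀))
    (hem : ∀ᶠ t in 𝓝 t₀, L.em (z t) = L.em x)
    (hep : ∀ᶠ t in 𝓝 t₀, ContinuousAt (fun t => L.ep (z t)) t)
    (hpsi : ∀ᶠ t₁ in 𝓝 t₀, SG (fun t => L.τ (z t) (z t₁) 0) t₁) :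
    L.τ (z t₀) x 0 = u₀ ∧ SG (fun t => L.τ (z t) x 0) t₀ ∧
    ∀ᶠ t₁ in 𝓝 t₀, L.τ (z t₁) x 0 ∈ ball (0 : E2) 3 ∧ L.e x (L.τ (z t₁) x 0) = L.ep (z t₁) ∧
      (fderiv ℝ (L.τ (z t₁) x) 0).IsInvertible ∧
      fderiv ℝ (fun t => L.τ (z t) x 0) t₁ =
        fderiv ℝ (L.τ (z t₁) x) 0 ∘L fderiv ℝ (fun t => L.τ (z t) (z t₁) 0) t₁ := by
  have ho : ∀ y : X, IsOpen {η : B | η ∈ L.e y '' ball (0 : E2) 3} := fun y =>
    L.e_open.preimage (by fun_prop : Continuous fun η : B => ((y, η) : X × B))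
  have h1 : ∀ᶠ t in 𝓝 t₀, L.ep (z t) ∈ L.e x '' ball (0 : E2) 3 :=
    hep.self_of_nhds.eventually ((ho x).mem_nhds ⟨u₀, hu₀, hx⟩)
  have h2 : ∀ᶠ t₁ in 𝓝 t₀, (fun t => L.τ (z t) x 0)
      =ᶠ[𝓝 t₁] fun t => L.τ (z t₁) x (L.τ (z t) (z t₁) 0) := by
    filter_upwards [h1.eventually_nhds, hep] with t₁ k1 k2
    have hm : L.ep (z t₁) ∈ L.e (z t₁) '' ball (0 : E2) 3 := ⟨0, mem_ball0, L.e_zero _⟩
    filter_upwards [k1, k2.eventually ((ho (z t₁)).mem_nhds hm)] with t m1 m2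
    have n1 : (0 : E2) ∈ L.dm (z t) (z t₁) := dm_zero m2
    have n2 : (0 : E2) ∈ L.dm (z t) x := dm_zero m1
    exact tau_trans n1 (dm_trans' n1 n2)
  have h3 : ∀ᶠ t₁ in 𝓝 t₀, ContDiffAt ℝ ∞ (fun t => L.τ (z t) x 0) t₁ ∧
      fderiv ℝ (fun t => L.τ (z t) x 0) t₁ =
        fderiv ℝ (L.τ (z t₁) x) 0 ∘L fderiv ℝ (fun t => L.τ (z t) (z t₁) 0) t₁ := by
    filter_upwards [h1, h2, hem, hpsi] with t₁ k1 k2 k3 k4
    have n0 : L.τ (z t₁) (z t₁) 0 = 0 := tau_zero_of_ep rfl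
    have n1 : (0 : E2) ∈ L.dm (z t₁) x := dm_zero k1
    have n3 : ContDiffAt ℝ ∞ (L.τ (z t₁) x) (L.τ (z t₁) (z t₁) 0) := by
      rw [n0]; exact tau_contDiffAt k3 n1
    have n4 : ContDiffAt ℝ ∞ (fun t => L.τ (z t₁) x (L.τ (z t) (z t₁) 0)) t₁ :=
      ContDiffAt.comp t₁ n3 k4.at
    refine ⟨n4.congr_of_eventuallyEq k2, ?_⟩
    rw [k2.fderiv_eq]
    have n5 := fderiv_comp t₁ (n3.differentiableAt (by simp)) (k4.at.differentiableAt (by simp))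
    rw [n0] at n5
    exact n5
  refine ⟨tau_zero' hu₀ hx, h3.mono fun t ht => ht.1, ?_⟩
  filter_upwards [h1, h3, hem] with t k1 k2 k3
  have n1 : (0 : E2) ∈ L.dm (z t) x := dm_zero k1
  exact ⟨tau_mem n1, (e_tau n1).trans (L.e_zero _), isInv_of_left (fderiv_tau_symm k3 n1), k2.2⟩

/-- the inverse of the Hessian -/
theorem inv_hess {σ A T Sg Sgi : E2 →L[ℝ] E2} {r : ℝ} (hr : r ≠ 0)
    (h : ∀ v v' : E2, ⟪σ v, v'⟫ = r ^ 2 * ⟪Sg (A v), A v'⟫)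
    (hi : Sg ∘L Sgi = ContinuousLinearMap.id ℝ E2) (hσ : σ ∘L T = 1) :
    A.IsInvertible ∧ cj A T = (r ^ 2)⁻¹ • Sgi := by
  have h1 : σ = (r ^ 2) • (ContinuousLinearMap.adjoint A ∘L Sg ∘L A) := by
    ext1 v
    refine ext_inner_right ℝ fun v' => ?_
    rw [h]
    simp [inner_smul_left, ContinuousLinearMap.adjoint_inner_left]
  have h2 : T ∘L σ = 1 := comp_eq_one_comm hσ
  have h3 : (T ∘L ((r ^ 2) • (ContinuousLinearMap.adjoint A ∘L Sg))) ∘L A = 1 := by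
    rw [← h2, h1]
    ext1 v
    simp
  have h4 := comp_eq_one_comm h3
  refine ⟨isInv_of_left h3, ?_⟩
  ext1 v
  have h5 := congrArg (fun k : E2 →L[ℝ] E2 => k (Sgi v)) h4
  have h6 : Sg (Sgi v) = v := DFunLike.congr_fun hi v
  simp only [ContinuousLinearMap.comp_apply, smul_apply, h6, map_smul,
    one_apply_eq_self] at h5
  change A (T (ContinuousLinearMap.adjoint A v)) = (r ^ 2)⁻¹ • Sgi v
  rw [← h5, smul_smul, inv_mul_cancel₀ (pow_ne_zero 2 hr), one_smul]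

theorem lf_ngs (u : E2 → E2 → ℝ) (z : E2 × E2) :
    lf (ng u) z = (z.2, - gradient (u z.1) z.2) := by
  have h : gradient (ng u z.1) z.2 = - gradient (u z.1) z.2 := by
    change rz (fderiv ℝ (fun t => - u z.1 t) z.2) = - rz (fderiv ℝ (u z.1) z.2)
    rw [fderiv_fun_neg, map_neg]
  rw [lf, h]

theorem hess_ngs (u : E2 → E2 → ℝ) (y t : E2) : hess (ng u y) t = - hess (u y) t := by
  have h1 : gradient (ng u y) = fun t => - gradient (u y) t := by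
    funext t
    change rz (fderiv ℝ (fun t => - u y t) t) = - rz (fderiv ℝ (u y) t)
    rw [fderiv_fun_neg, map_neg]
  rw [hess, h1, fderiv_fun_neg]
  rfl

/-- the label of the stable leaf, as a function on the lifts of the leaves of `ng u` -/
def xhn (xh : E2 × E2 → E2) (z : E2 × E2) : E2 := xh (z.1, - z.2)

theorem xhn_lf (xh : E2 × E2 → E2) (u : E2 → E2 → ℝ) (z : E2 × E2) :
    xhn xh (lf (ng u) z) = xh (lf u z) := by
  rw [lf_ngs, xhn, neg_neg]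
  rfl

/-- **The link.** -/
theorem link {L : Leaf Γ X B} {M : Metr L} {u s S S' : E2 → E2 → ℝ} {xh : E2 × E2 → E2}
    {Φ : E2 × E2 → E2 × E2} (D : LinkPF (ng u) (ng s) (xhn xh) Φ S S')
    (K : LinkIn L M u s xh) :
    ∀ᶠ w in 𝓝 (0 : E2 × E2), ∀ (x : X) (u₀ : E2), L.em x = K.ξ w.1 → u₀ ∈ ball (0 : E2) 3 →
      L.e x u₀ = L.ep (K.z w) → ∃ (θ Q : E2 → E2) (N' : E2 → E2 →L[ℝ] E2),
      SG θ u₀ ∧ θ u₀ = w.2 ∧ SG Q u₀ ∧ SG N' u₀ ∧ (fderiv ℝ Q u₀).IsInvertible ∧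
      ∀ᶠ v in 𝓝 u₀, L.e x v = L.ep (K.z (w.1, θ v)) ∧
        Q v = (Φ (lf (ng u) (w.1, θ v))).1 ∧
        (1 - hess (S' (xh (lf u (w.1, θ v)))) (Φ (lf (ng u) (w.1, θ v))).2 ∘L
            hess (S w.1) (Q v)) ∘L
          (N' v + (K.r0 ^ 2)⁻¹ • cj (fderiv ℝ Q v) ((tens M).N x v))
          = hess (S' (xh (lf u (w.1, θ v)))) (Φ (lf (ng u) (w.1, θ v))).2 := by
  have hus : ∀ᶠ w in 𝓝 (0 : E2 × E2), ContDiffAt ℝ ∞ (u w.1) w.2 := by
    have h1 : ∀ᶠ w in 𝓝 (0 : E2 × E2), ContDiffAt ℝ ∞ (ng u w.1) w.2 := D.u_jg.smooth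
    filter_upwards [h1] with w hw
    have h2 : u w.1 = fun t => -(ng u w.1 t) := by
      funext t
      exact (neg_neg (u w.1 t)).symm
    rw [h2]
    exact hw.neg
  filter_upwards [D.pt.eventually_nhds, K.em_z.eventually_nhds, K.lv_z.eventually_nhds,
    K.ep_cont.eventually_nhds, K.psi.eventually_nhds, K.hess_z.eventually_nhds,
    hus.eventually_nhds] with w p1 k1 k2 k3 k4 k5 k6
  intro x u₀ hx hu₀ he
  have hem : ∀ᶠ t in 𝓝 w.2, L.em (K.z (w.1, t)) = L.em x := by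
    filter_upwards [slice k1] with t ht
    rw [ht, hx]
  obtain ⟨g0, gS, gev⟩ := geo (L := L) (z := fun t => K.z (w.1, t)) (t₀ := w.2) (x := x) hu₀ he
    hem (slice k3) (slice k4)
  set g : E2 → E2 := fun t => L.τ (K.z (w.1, t)) x 0 with hg
  set q : E2 → E2 := fun t => (Φ (lf (ng u) (w.1, t))).1 with hq
  set A : E2 → E2 →L[ℝ] E2 := fun t => fderiv ℝ (fun t' => L.τ (K.z (w.1, t')) (K.z (w.1, t)) 0) t
    with hA
  have hr : K.r0 ≠ 0 := K.r0_pos.ne'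
  -- the data at nearby points
  have hp1 := slice p1
  have hk5 := slice k5
  have hT : ∀ᶠ t in 𝓝 w.2, ∃ T : E2 →L[ℝ] E2,
      (A t).IsInvertible ∧ cj (A t) T = -((K.r0 ^ 2)⁻¹ • Si M (K.z (w.1, t))) ∧
      (hess (ng u w.1) t + hess (ng s (xhn xh (lf (ng u) (w.1, t)))) t) ∘L T = 1 := by
    filter_upwards [hp1, hk5] with t m1 m2
    obtain ⟨T, hT⟩ : ∃ T : E2 →L[ℝ] E2,
        (hess (ng u w.1) t + hess (ng s (xhn xh (lf (ng u) (w.1, t)))) t) ∘L T = 1 := by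
      obtain ⟨e, he⟩ := m1.2.2.1
      refine ⟨e.symm, ?_⟩
      rw [← he]
      ext1 v
      simp
    have hT' : (hess (u w.1) t + hess (s (xh (lf u (w.1, t)))) t) ∘L (-T) = 1 := by
      rw [← hT, hess_ngs, hess_ngs, xhn_lf]
      ext1 v
      simp only [ContinuousLinearMap.comp_apply, neg_apply, add_apply, map_neg]
      abel
    obtain ⟨n1, n2⟩ := inv_hess hr m2 (Sf_Si M _) hT'
    refine ⟨T, n1, ?_, hT⟩
    rw [← n2, cj_neg, neg_neg]
  -- the inverse of `g`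
  have hgi : (fderiv ℝ g w.2).IsInvertible := by
    obtain ⟨T, hT1, -, -⟩ := hT.self_of_nhds
    rw [gev.self_of_nhds.2.2.2]
    exact gev.self_of_nhds.2.2.1.comp hT1
  obtain ⟨θ, θS, θ0, θr, θl⟩ := SG_inverse gS hgi
  rw [show g w.2 = u₀ from g0] at θS θ0 θr
  have θt : Tendsto θ (𝓝 u₀) (𝓝 w.2) := by
    have := θS.contAt.tendsto
    rwa [θ0] at this
  have qS : SG q w.2 := by
    have h1 := hp1.self_of_nhds.1
    filter_upwards [h1] with t ht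
    exact ht.fst
  have QS : SG (fun v => q (θ v)) u₀ := SG.comp (g := q) (f := θ) (by rw [θ0]; exact qS) θS
  -- the derivative of `q`
  have hDq : ∀ᶠ v in 𝓝 u₀, fderiv ℝ q (θ v)
      = fderiv ℝ (fun v => q (θ v)) v ∘L fderiv ℝ g (θ v) := by
    have h1 : ∀ᶠ t in 𝓝 w.2, q =ᶠ[𝓝 t] fun t' => (fun v => q (θ v)) (g t') := by
      filter_upwards [θl.eventually_nhds] with t ht
      filter_upwards [ht] with t' ht'
      simp only [ht']
    filter_upwards [θt.eventually h1, θt.eventually gS, QS, θr] with v m1 m2 m3 m4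
    rw [m1.fderiv_eq]
    have m5 : DifferentiableAt ℝ (fun v => q (θ v)) (g (θ v)) := by
      rw [m4]; exact m3.differentiableAt (by simp)
    have m6 := fderiv_comp (θ v) m5 (m2.differentiableAt (by simp))
    rw [m4] at m6
    exact m6
  -- the smooth tensor
  refine ⟨θ, fun v => q (θ v), fun v => bl Φ (lf (ng u) (w.1, θ v)) ∘L
      ContinuousLinearMap.adjoint (fderiv ℝ q (θ v)) - (K.r0 ^ 2)⁻¹ •
        cj (fderiv ℝ (fun v => q (θ v)) v)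
          (∫ r in (0 : ℝ)..(u w.1 (θ v) + K.c w.1 - L.lv x), hor L (x, r) v),
    θS, θ0, QS, ?_, ?_, ?_⟩
  · -- smoothness
    have h1 : SG (fun v => bl Φ (lf (ng u) (w.1, θ v))) u₀ :=
      SG.comp (g := fun t => bl Φ (lf (ng u) (w.1, t))) (f := θ)
        (by rw [θ0]; exact hp1.self_of_nhds.2.1) θS
    have h2 : SG (fun v => fderiv ℝ q (θ v)) u₀ :=
      SG.comp (g := fderiv ℝ q) (f := θ) (by rw [θ0]; exact qS.fderiv) θS
    have h3 : SG (fun v => u w.1 (θ v) + K.c w.1 - L.lv x) u₀ := by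
      have h4 : SG (fun v => u w.1 (θ v)) u₀ :=
        SG.comp (g := u w.1) (f := θ) (by rw [θ0]; exact slice k6) θS
      filter_upwards [h4] with v hv
      exact (hv.add contDiffAt_const).sub contDiffAt_const
    have h5 := smooth_int (K.hor_smooth x) hu₀ h3
    filter_upwards [h1, h2, QS.fderiv, h5] with v m1 m2 m3 m4
    refine (m1.clm_comp (adjL.contDiff.contDiffAt.comp v m2)).sub (ContDiffAt.const_smul _ ?_)
    exact m3.clm_comp (m4.clm_comp (adjL.contDiff.contDiffAt.comp v m3))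
  · -- invertibility
    have h1 := hDq.self_of_nhds
    have h2 := hp1.self_of_nhds.2.2.2.1
    rw [θ0] at h1
    obtain ⟨G, hG⟩ := hgi
    have h3 : fderiv ℝ (fun v => q (θ v)) u₀
        = fderiv ℝ q w.2 ∘L (G.symm : E2 →L[ℝ] E2) := by
      rw [h1, ← hG]
      ext1 v
      simp
    rw [h3]
    exact h2.comp ⟨G.symm, rfl⟩
  · filter_upwards [θt.eventually gev, θt.eventually hT, θt.eventually hp1, hDq, θr,
      θt.eventually (slice k2), θt.eventually hem] with v m1 m2 m3 m4 m5 m6 m7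
    obtain ⟨T, hT1, hT2, hT3⟩ := m2
    have m5' : L.τ (K.z (w.1, θ v)) x 0 = v := m5
    rw [m5'] at m1
    refine ⟨m1.2.1, rfl, ?_⟩
    have key := m3.2.2.2.2 T hT3
    have e1 : cj (fderiv ℝ g (θ v)) T = -((K.r0 ^ 2)⁻¹ • (NN M x v
        - ∫ r in (0 : ℝ)..(L.lv (K.z (w.1, θ v)) - L.lv x), hor L (x, r) v)) := by
      rw [m1.2.2.2, cj_comp, hT2, cj_neg, ← NN_level M m7 m1.2.1.symm m1.1, ← cjL_apply,
        map_smul, cjL_apply]
    have e2 : fderiv ℝ q (θ v) ∘L T ∘L ContinuousLinearMap.adjoint (fderiv ℝ q (θ v))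
        = -((K.r0 ^ 2)⁻¹ • cj (fderiv ℝ (fun v => q (θ v)) v) (NN M x v
        - ∫ r in (0 : ℝ)..(L.lv (K.z (w.1, θ v)) - L.lv x), hor L (x, r) v)) := by
      change cj (fderiv ℝ q (θ v)) T = _
      rw [m4, cj_comp, e1, cj_neg, ← cjL_apply, map_smul, cjL_apply]
    have m6' : L.lv (K.z (w.1, θ v)) = u w.1 (θ v) + K.c w.1 := m6
    rw [m6', cj_sub, smul_sub] at e2
    have e3 : bl Φ (lf (ng u) (w.1, θ v)) ∘L ContinuousLinearMap.adjoint (fderiv ℝ q (θ v)) -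
        (K.r0 ^ 2)⁻¹ • cj (fderiv ℝ (fun v => q (θ v)) v)
          (∫ r in (0 : ℝ)..(u w.1 (θ v) + K.c w.1 - L.lv x), hor L (x, r) v)
        + (K.r0 ^ 2)⁻¹ • cj (fderiv ℝ (fun v => q (θ v)) v) ((tens M).N x v)
        = bl Φ (lf (ng u) (w.1, θ v)) ∘L ContinuousLinearMap.adjoint (fderiv ℝ q (θ v))
          - fderiv ℝ q (θ v) ∘L T ∘L ContinuousLinearMap.adjoint (fderiv ℝ q (θ v)) := by
      rw [e2]
      change _ + (K.r0 ^ 2)⁻¹ • cj (fderiv ℝ (fun v => q (θ v)) v) (NN M x v) = _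
      abel
    rw [e3]
    rw [xhn_lf] at key
    exact key

/-- **The link on the leaf `y = 0`**, in terms of the label `q₀` of the stable leaf. -/
theorem link0 {L : Leaf Γ X B} {M : Metr L} {u s S S' : E2 → E2 → ℝ} {xh : E2 × E2 → E2}
    {Φ : E2 × E2 → E2 × E2} (D : LinkPF (ng u) (ng s) (xhn xh) Φ S S')
    (K : LinkIn L M u s xh) :
    ∀ᶠ q₀ in 𝓝 (0 : E2), ∀ (x : X) (u₀ : E2), L.em x = K.ξ 0 → u₀ ∈ ball (0 : E2) 3 →
      L.e x u₀ = K.η q₀ → ∃ (Q : E2 → E2) (N' : E2 → E2 →L[ℝ] E2),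
      SG Q u₀ ∧ Q u₀ = q₀ ∧ SG N' u₀ ∧ (fderiv ℝ Q u₀).IsInvertible ∧
      ∀ᶠ v in 𝓝 u₀, L.e x v = K.η (Q v) ∧
        hess (S' (Q v)) 0 = N' v + (K.r0 ^ 2)⁻¹ • cj (fderiv ℝ Q v) ((tens M).N x v) := by
  have t0 : Tendsto (fun t : E2 => ((0 : E2), t)) (𝓝 0) (𝓝 (0 : E2 × E2)) :=
    (Continuous.prodMk_right (0 : E2)).tendsto _
  set q : E2 → E2 := fun t => (Φ (lf (ng u) (0, t))).1 with hq
  have hΦt := D.Φ_tend
  have hpt := t0.eventually D.pt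
  have q0 : q 0 = 0 := by
    have h1 : lf (ng u) (0, 0) = 0 := by
      show ((0 : E2), gradient (ng u 0) 0) = 0
      rw [D.crit]; rfl
    simp only [hq]
    rw [h1, D.Φ_zero]
    rfl
  -- on the leaf `0`: the label is `q`, the second coordinate is `0`
  have hlab : ∀ᶠ t in 𝓝 (0 : E2), xh (lf u (0, t)) = q t ∧ (Φ (lf (ng u) (0, t))).2 = 0 ∧
      hess (S 0) (q t) = 0 := by
    have h1 : Tendsto (fun t : E2 => (Φ (lf (ng u) (0, t))).1) (𝓝 0) (𝓝 0) :=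
      (continuous_fst.tendsto (0 : E2 × E2)).comp (hΦt.comp t0)
    have h2 : ∀ᶠ t in 𝓝 (0 : E2), gradient (S 0) (Φ (lf (ng u) (0, t))).1
        = (Φ (lf (ng u) (0, t))).2 := t0.eventually D.leaf_S
    have h3 : ∀ᶠ t in 𝓝 (0 : E2), gradient (S' (xhn xh (lf (ng u) (0, t))))
        (Φ (lf' (ng s) (xhn xh (lf (ng u) (0, t)), t))).2
        = (Φ (lf' (ng s) (xhn xh (lf (ng u) (0, t)), t))).1 :=
      (D.xt_tend.comp t0).eventually D.leaf_S'
    have h4 : ∀ᶠ t in 𝓝 (0 : E2), gradient (ng s (xhn xh (lf (ng u) (0, t)))) t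
        = - gradient (ng u 0) t := (D.lf_tend.comp t0).eventually D.leaf_xh
    have h5 : ∀ᶠ t in 𝓝 (0 : E2), gradient (S' (xhn xh (lf (ng u) (0, t)))) 0
        = xhn xh (lf (ng u) (0, t)) := (D.x_tend.comp t0).eventually D.label'
    filter_upwards [h1.eventually D.base.eventually_nhds, h2, h3, h4, h5] with t m1 m2 m3 m4 m5
    have n1 : (Φ (lf (ng u) (0, t))).2 = 0 := by rw [← m2, m1.self_of_nhds]
    have n2 : lf' (ng s) (xhn xh (lf (ng u) (0, t)), t) = lf (ng u) (0, t) := by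
      rw [lf', lf]
      simp only
      rw [lf] at m4
      simp only at m4
      rw [m4, neg_neg]
    rw [n2, n1, m5] at m3
    refine ⟨?_, n1, ?_⟩
    · exact (xhn_lf xh u (0, t)).symm.trans m3
    · have n3 : gradient (S 0) =ᶠ[𝓝 (q t)] fun _ => 0 := m1
      rw [hess, n3.fderiv_eq]
      simp
  -- the inverse of `q`
  have qS : SG q 0 := by
    filter_upwards [hpt.self_of_nhds.1] with t ht
    exact ht.fst
  obtain ⟨ψ, ψS, ψ0, ψr, -⟩ := SG_inverse qS hpt.self_of_nhds.2.2.2.1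
  rw [q0] at ψS ψ0 ψr
  have ψt : Tendsto ψ (𝓝 0) (𝓝 0) := by
    have := ψS.contAt.tendsto
    rwa [ψ0] at this
  filter_upwards [ψt.eventually (t0.eventually (link D K)), ψt.eventually hlab.eventually_nhds,
    ψt.eventually (t0.eventually K.ep_z).eventually_nhds, ψr] with q₀ m1 m2 m3 m4
  intro x u₀ hx hu₀ he
  have e0 : L.e x u₀ = L.ep (K.z (0, ψ q₀)) := by
    rw [m3.self_of_nhds, m2.self_of_nhds.1, m4, he]
  obtain ⟨θ, Q, N', θS, θ0, QS, N'S, hQ, hev⟩ := m1 x u₀ hx hu₀ e0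
  have θt : Tendsto θ (𝓝 u₀) (𝓝 (ψ q₀)) := by
    have := θS.contAt.tendsto
    rwa [θ0] at this
  refine ⟨Q, N', QS, ?_, N'S, hQ, ?_⟩
  · have h1 := hev.self_of_nhds.2.1
    rw [h1, θ0]
    exact m4
  · filter_upwards [hev, θt.eventually m2, θt.eventually m3] with v n1 n2 n3
    obtain ⟨a1, a2, a3⟩ := n1
    have a2' : Q v = q (θ v) := a2
    refine ⟨by rw [a1, n3, n2.1, a2'], ?_⟩
    rw [n2.1, n2.2.1, ← a2'] at a3
    have a4 : hess (S (0 : E2)) (Q v) = 0 := by rw [a2']; exact n2.2.2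
    rw [a4, ContinuousLinearMap.comp_zero, sub_zero] at a3
    rw [← a3]
    exact ContinuousLinearMap.id_comp _

end Vale.Agent.P207.N3.H473
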