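import Vale.Agent.P207.N3.H780.Sides
import Vale.Agent.P207.N3.H473.Link

/-!
# P207, line N3: the chart data of the link, from the input of the product formula, both sides
-/

open Set Filter Topology Metric MeasureTheory
open scoped ContDiff RealInnerProductSpace

noncomputable section

namespace Vale.Agent.P207.N3.H473

variable {N N' : E2 → E2} {h h' : ℝ} (I : PFIn N N' h) {Φ : E2 × E2 → E2 × E2} {K : E2 × E2 → ℝ}
  {τ τ' : E2 → E2 → E2}

theorem negsnd_tendsto : Tendsto (fun z : E2 × E2 => (z.1, - z.2)) (𝓝 0) (𝓝 0) := by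
  have h1 : Continuous (fun z : E2 × E2 => (z.1, - z.2)) := by fun_prop
  have h2 := h1.tendsto 0
  have h3 : ((0 : E2 × E2).1, -(0 : E2 × E2).2) = 0 := by simp
  rwa [h3] at h2

/-- unstable side: `S` on the leaf `y`, the label of the stable leaf is `xh` -/
theorem linkPF (D : Side Φ K (ng I.u) I.ρ I.ϑ h')
    (D' : Side (sw Φ) (swK Φ K) (ng I.s) I.ρ' I.ϑ' h') (T : IsTau Φ (ng I.u) τ)
    (T' : IsTau (sw Φ) (ng I.s) τ') :
    LinkPF (ng I.u) (ng I.s) (xhn I.xh) Φ (Side.SS K (ng I.u) τ)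
      (Side.SS (swK Φ K) (ng I.s) τ') where
  Φ_zero := D.ex.zero
  Φ_smooth := D.ex.smooth
  Φ_sympl := D.ex.sympl
  u_jg := D.u_jg
  s_jg := D'.u_jg
  crit := D.crit
  inv0 := by
    obtain ⟨e, he⟩ := I.hess_inv
    refine isInv_of_left (C := -(e.symm : E2 →L[ℝ] E2)) ?_
    have h1 : hess (ng I.u 0) 0 + hess (ng I.s 0) 0 = -(e : E2 →L[ℝ] E2) := by
      rw [he, hess_ngs, hess_ngs]
      abel
    rw [h1]
    ext1 v
    simp
  xh_cont := by
    have h1 : ContinuousAt I.xh (0, -0) := by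
      rw [neg_zero]
      exact I.xh_cont.self_of_nhds
    exact ContinuousAt.comp (f := fun z : E2 × E2 => (z.1, - z.2)) (x := (0 : E2 × E2)) h1
      (by fun_prop)
  xh_zero := by
    show I.xh (0, -0) = 0
    rw [neg_zero]
    exact I.xh_zero
  leaf_xh := by
    filter_upwards [negsnd_tendsto.eventually I.leaf_xh] with z hz
    have h1 : gradient (I.s (xhn I.xh z)) z.1 = - - z.2 := hz
    rw [gradient_ng, h1, neg_neg]
  S_smooth := (D.SS_jg T).smooth
  S'_smooth := (D'.SS_jg T').smooth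
  leaf_S := D.SS_grad' T
  leaf_S' := D'.SS_grad' T'
  base := D.SS_grad_base T
  label' := D'.SS_label T'

/-- stable side: `S'` on the leaf `x`, the label of the unstable leaf is `yh` -/
theorem linkPF' (D : Side Φ K (ng I.u) I.ρ I.ϑ h')
    (D' : Side (sw Φ) (swK Φ K) (ng I.s) I.ρ' I.ϑ' h') (T : IsTau Φ (ng I.u) τ)
    (T' : IsTau (sw Φ) (ng I.s) τ') :
    LinkPF (ng I.s) (ng I.u) (xhn (xhn I.yh)) (sw Φ) (Side.SS (swK Φ K) (ng I.s) τ')
      (Side.SS K (ng I.u) τ) where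
  Φ_zero := D'.ex.zero
  Φ_smooth := D'.ex.smooth
  Φ_sympl := D'.ex.sympl
  u_jg := D'.u_jg
  s_jg := D.u_jg
  crit := D'.crit
  inv0 := by
    obtain ⟨e, he⟩ := I.hess_inv
    refine isInv_of_left (C := -(e.symm : E2 →L[ℝ] E2)) ?_
    have h1 : hess (ng I.s 0) 0 + hess (ng I.u 0) 0 = -(e : E2 →L[ℝ] E2) := by
      rw [he, hess_ngs, hess_ngs]
      abel
    rw [h1]
    ext1 v
    simp
  xh_cont := by
    have h1 : xhn (xhn I.yh) = I.yh := by
      funext z
      simp [xhn]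
    rw [h1]
    exact I.yh_cont.self_of_nhds
  xh_zero := by
    show I.yh (0, - -0) = 0
    rw [neg_neg]
    exact I.yh_zero
  leaf_xh := by
    filter_upwards [I.leaf_yh] with z hz
    have h1 : xhn (xhn I.yh) z = I.yh z := by simp [xhn]
    rw [h1, gradient_ng, hz]
  S_smooth := (D'.SS_jg T').smooth
  S'_smooth := (D.SS_jg T).smooth
  leaf_S := D'.SS_grad' T'
  leaf_S' := by
    filter_upwards [D.SS_grad' T] with z hz
    have h1 : sw Φ (lf' (ng I.u) z) = ((Φ (lf (ng I.u) z)).2, (Φ (lf (ng I.u) z)).1) := by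
      simp only [sw, lf', lf, neg_neg]
    rw [h1]
    exact hz
  base := D'.SS_grad_base T'
  label' := D.SS_label T

/-- **the two sides of the link** -/
theorem exists_linkPF : ∃ (Φ : E2 × E2 → E2 × E2) (K : E2 × E2 → ℝ) (τ τ' : E2 → E2 → E2),
    Side Φ K (ng I.u) I.ρ I.ϑ (-h) ∧ Side (sw Φ) (swK Φ K) (ng I.s) I.ρ' I.ϑ' (-h) ∧
    IsTau Φ (ng I.u) τ ∧ IsTau (sw Φ) (ng I.s) τ' ∧
    LinkPF (ng I.u) (ng I.s) (xhn I.xh) Φ (Side.SS K (ng I.u) τ)
      (Side.SS (swK Φ K) (ng I.s) τ') ∧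
    LinkPF (ng I.s) (ng I.u) (xhn (xhn I.yh)) (sw Φ) (Side.SS (swK Φ K) (ng I.s) τ')
      (Side.SS K (ng I.u) τ) := by
  obtain ⟨Φ, K, D, D'⟩ := sides N N' h I
  obtain ⟨τ, T⟩ := D.exists_tau
  obtain ⟨τ', T'⟩ := D'.exists_tau
  exact ⟨Φ, K, τ, τ', D, D', T, T', linkPF I D D' T T', linkPF' I D D' T T'⟩

end Vale.Agent.P207.N3.H473
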