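import Vale.Agent.P207.N3.H12.DivIn1
import Vale.Agent.P207.N3.H250.PfOfIn
import Vale.Agent.P207.N3.H306.LinkI
import Vale.Agent.P207.N3.H473.LinkInst

/-!
# P207, line N3: the link on the two axes of a closed orbit, for the product formula `PF`

`linkX`, `linkY`: `LinkAt` of H12 for the two halves of the `PF` of a closed orbit (`c = - r₀²`).
-/

open Set Filter Topology Metric MeasureTheory InnerProductSpace
open scoped ContDiff RealInnerProductSpace Gradient

noncomputable section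

namespace Vale.Agent.P207.N3.H473

open Ten
open H12 (LinkAt)
open Vale.Agent.P207.N3.H722 (GeoIn HessIn)

variable {Γ X B : Type} [Group Γ] [MetricSpace X] [ProperSpace X] [MulAction Γ X]
  [IsIsometricSMul Γ X] [TopologicalSpace B] [CompactSpace B] [T2Space B] [MulAction Γ B]
  [ContinuousConstSMul Γ B]

/-- the link at the axis, in the coordinate `v ↦ lab (e x v)` -/
theorem linkAt {L : Leaf Γ X B} {M : Metr L} {u s S S' : E2 → E2 → ℝ} {xh : E2 × E2 → E2}
    {Φ : E2 × E2 → E2 × E2} (D : LinkPF (ng u) (ng s) (xhn xh) Φ S S') (K : LinkIn L M u s xh)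
    {x : X} (hx : L.em x = K.ξ 0) (hp : L.ep x = K.η 0) {lab : B → E2}
    (hl : ∀ᶠ q in 𝓝 (0 : E2), lab (K.η q) = q) :
    LinkAt (tens M) x (fun v => lab (L.e x v)) S' (-(K.r0 ^ 2)) := by
  obtain ⟨Q, N', QS, Q0, NS, -, hev⟩ := (link0 D K).self_of_nhds x 0 hx mem_ball0
    (by rw [L.e_zero, hp])
  have Qt : Tendsto Q (𝓝 0) (𝓝 0) := by
    have := QS.contAt.tendsto
    rwa [Q0] at this
  have hg : ∀ᶠ v in 𝓝 (0 : E2), lab (L.e x v) = Q v := by
    filter_upwards [hev, Qt.eventually hl] with v h1 h2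
    rw [h1.1, h2]
  refine ⟨N', NS, ?_⟩
  filter_upwards [hev, hg.eventually_nhds] with v h1 h2
  have e1 : (fun v => lab (L.e x v)) =ᶠ[𝓝 v] Q := h2
  have e2 : lab (L.e x v) = Q v := h2.self_of_nhds
  simp only [e2]
  rw [e1.fderiv_eq, inv_neg]
  change hess (S' (Q v)) 0 = N' v - (-(K.r0 ^ 2)⁻¹) • cj (fderiv ℝ Q v) ((tens M).N x v)
  rw [h1.2]
  module

section Orbit

variable {L : Leaf Γ X B} {V : Type} [NormedAddCommGroup V] [NormedSpace ℝ V]
  [FiniteDimensional ℝ V] (I : GeoIn L V) {M : Metr L} (H : HessIn I M) (o : Orb L) (n : Nor L o)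
  (n' : Nor L o.flip) (A : E2 ≃L[ℝ] E2) {N N' : E2 → E2} {h : ℝ} {J : PFIn N N' h}
  {Ni N'i : E2 → E2} (F : PfOut J Ni N'i)

include H in
/-- **the link for the half `X`** (stable leaves, second derivatives along `U_{γ⁻}`) -/
theorem linkX (hu : J.u = I.uu o n' A) (hs : J.s = I.ss o n) (hxh : J.xh = I.xh o n) :
    LinkAt (tens M) o.x n.g F.F.X.S (-(I.r₀ ^ 2)) := by
  have D := linkPF J F.D F.D' F.T F.T'
  rw [← F.XS, ← F.YS, hu, hs, hxh] at D
  exact linkAt D (H306.linkU I H o n n' A) (x := o.x) (lab := n.x)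
    (H722.GeoIn.xip_zero o n' A).symm (H722.inv_zero n).symm
    (Eventually.of_forall fun q => n.inv_right q)

include H in
/-- **the link for the half `Y`** (unstable leaves, second derivatives along `U_{γ⁺}`) -/
theorem linkY (hu : J.u = I.uu o n' A) (hs : J.s = I.ss o n) (hyh : J.yh = I.yh o n' A) :
    LinkAt (tens M) o.flip.x (fun v => A (n'.g v)) F.F.Y.S (-(I.r₀ ^ 2)) := by
  have D := linkPF' J F.D F.D' F.T F.T'
  rw [← F.XS, ← F.YS, hu, hs, hyh] at D
  refine linkAt D (H306.linkS I H o n n' A) (x := o.flip.x) (lab := fun η => A (n'.x η)) ?_ ?_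
    (Eventually.of_forall fun q => ?_)
  · change o.flip.neg = n.inv 0
    rw [H722.inv_zero, H722.flip_neg]
  · change o.flip.pos = H722.GeoIn.xip o n' A 0
    rw [H722.GeoIn.xip_zero, H722.flip_pos]
  · change A (n'.x (n'.inv (A.symm q))) = q
    rw [n'.inv_right, A.apply_symm_apply]

end Orbit

end Vale.Agent.P207.N3.H473
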